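import Crest.Agent.R177.Sep.Separator

/-!
Recursive use of separators.
-/

set_option autoImplicit false

namespace Crest.Agent.R177.SepAux

open Finset

variable {P : Type} [DecidableEq P] {H : SimpleGraph P}

theorem recursion {h : ℕ} (hH : ¬ HasCliqueMinor H h) {j₀ : ℕ} (hj₀ : 0 < j₀)
    (hM : ∀ j, j₀ ≤ j → (j + 1) ^ 2 * (h * (1 + h * (2 * ((j + 1) ^ 2 * (j + 1) + 1)))) ≤ 2 ^ j) :
    ∀ j, j₀ ≤ j → ∀ A : Finset P, A.card ≤ 2 ^ j → ∃ (X : Finset P) (c : P → ℕ),
      (X.card : ℝ) ≤ A.card * (2 / j₀ - 2 / j) ∧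
      (∀ x ∈ A, ∀ y ∈ A, x ∉ X → y ∉ X → H.Adj x y → c x = c y) ∧
      ∀ n, (A.filter fun x => x ∉ X ∧ c x = n).card ≤ 2 ^ j₀ := by
  intro j hj
  induction j, hj using Nat.le_induction with
  | base =>
    intro A hA
    exact ⟨∅, fun _ => 0, by simp, fun _ _ _ _ _ _ _ => rfl,
      fun n => (card_filter_le _ _).trans hA⟩
  | succ j hj ih =>
    intro A hA
    have hj0 : (0 : ℝ) < j := by exact_mod_cast lt_of_lt_of_le hj₀ hj
    have hstep : (2 : ℝ) / (j + 1) ^ 2 ≤ 2 / j - 2 / (j + 1) := by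
      rw [div_sub_div _ _ hj0.ne' (by positivity), div_le_div_iff₀ (by positivity) (by positivity)]
      nlinarith
    have hstep0 : (0 : ℝ) ≤ 2 / (j + 1) ^ 2 := by positivity
    have hA0 : (0 : ℝ) ≤ A.card := Nat.cast_nonneg _
    by_cases hsmall : A.card ≤ 2 ^ j
    · obtain ⟨X, c, h1, h2, h3⟩ := ih A hsmall
      refine ⟨X, c, h1.trans ?_, h2, h3⟩
      push_cast
      exact mul_le_mul_of_nonneg_left (by linarith) hA0
    have hpos : 0 < A.card := by omega
    obtain ⟨X₀, c₀, g1, g2, g3, g4⟩ := separator hH A hpos (l := (j + 1) ^ 2) (j := j + 1)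
      (by positivity) hA
    set Ai : ℕ → Finset P := fun i => A.filter fun x => x ∉ X₀ ∧ c₀ x = i with hAi
    have hAi_le : ∀ i, (Ai i).card ≤ 2 ^ j := fun i => by
      have := g4 i
      rw [pow_succ] at hA
      simp only [hAi]
      omega
    choose X c k1 k2 k3 using fun i => ih (Ai i) (hAi_le i)
    have hmem : ∀ x, x ∉ X₀ ∪ (range 3).biUnion X → x ∉ X₀ ∧ x ∉ X (c₀ x) := by
      intro x hx
      exact ⟨fun hh => hx (mem_union_left _ hh), fun hh => hx (mem_union_right _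
        (mem_biUnion.2 ⟨c₀ x, mem_range.2 (g2 x), hh⟩))⟩
    refine ⟨X₀ ∪ (range 3).biUnion X, fun x => 3 * c (c₀ x) x + c₀ x, ?_, ?_, ?_⟩
    · have a1 : (X₀.card : ℝ) ≤ A.card * (2 / (j + 1) ^ 2) := by
        have b1 := hM j hj
        have b2 : (j + 1) ^ 2 * X₀.card ≤ 2 * A.card := by omega
        have b3 : ((j : ℝ) + 1) ^ 2 * X₀.card ≤ 2 * A.card := by exact_mod_cast b2
        rw [← mul_div_assoc, le_div_iff₀ (by positivity)]
        linarith
      have a2 : ∑ i ∈ range 3, (Ai i).card ≤ A.card := by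
        rw [← card_biUnion]
        · exact card_le_card (biUnion_subset.2 fun i _ => filter_subset _ _)
        · intro i _ i' _ hne
          simp only [Function.onFun, hAi]
          rw [disjoint_filter]
          intro x _ hx hx'
          exact hne (hx.2.symm.trans hx'.2)
      have a2' : ∑ i ∈ range 3, ((Ai i).card : ℝ) ≤ A.card := by exact_mod_cast a2
      have a3 : (0 : ℝ) ≤ 2 / j₀ - 2 / j := by
        have : (j₀ : ℝ) ≤ j := by exact_mod_cast hj
        have h0 : (0 : ℝ) < j₀ := by exact_mod_cast hj₀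
        have := div_le_div_of_nonneg_left (show (0 : ℝ) ≤ 2 by norm_num) h0 this
        linarith
      have a4 : (((range 3).biUnion X).card : ℝ) ≤ A.card * (2 / j₀ - 2 / j) := by
        calc (((range 3).biUnion X).card : ℝ) ≤ ∑ i ∈ range 3, ((X i).card : ℝ) := by
              exact_mod_cast card_biUnion_le
          _ ≤ ∑ i ∈ range 3, ((Ai i).card : ℝ) * (2 / j₀ - 2 / j) := sum_le_sum fun i _ => k1 i
          _ ≤ _ := by
              rw [← sum_mul]
              exact mul_le_mul_of_nonneg_right a2' a3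
      have a5 : ((X₀ ∪ (range 3).biUnion X).card : ℝ) ≤ X₀.card + ((range 3).biUnion X).card := by
        exact_mod_cast card_union_le _ _
      push_cast
      nlinarith [mul_le_mul_of_nonneg_left hstep hA0]
    · intro x hx y hy hxX hyX hxy
      obtain ⟨hx1, hx2⟩ := hmem x hxX
      obtain ⟨hy1, hy2⟩ := hmem y hyX
      have e := g3 x hx y hy hx1 hy1 hxy
      have e' := k2 (c₀ y) x (mem_filter.2 ⟨hx, hx1, e⟩) y (mem_filter.2 ⟨hy, hy1, rfl⟩)
        (e ▸ hx2) hy2 hxy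
      simp only [e, e']
    · intro n
      refine le_trans (card_le_card fun x hx => ?_) (k3 (n % 3) (n / 3))
      rw [mem_filter] at hx
      obtain ⟨hx1, hx2⟩ := hmem x hx.2.1
      have e := hx.2.2
      have e3 := g2 x
      have e1 : n % 3 = c₀ x := by simp only at e; omega
      have e2 : n / 3 = c (c₀ x) x := by simp only at e; omega
      rw [e1, e2]
      exact mem_filter.2 ⟨mem_filter.2 ⟨hx.1, hx1, rfl⟩, hx2, rfl⟩

theorem exists_scale (h : ℕ) : ∃ J : ℕ, ∀ j, J ≤ j →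
    (j + 1) ^ 2 * (h * (1 + h * (2 * ((j + 1) ^ 2 * (j + 1) + 1)))) ≤ 2 ^ j := by
  have h1 := tendsto_pow_const_div_const_pow_of_one_lt 5 (show (1 : ℝ) < 2 by norm_num)
  have h2 := h1.eventually (gt_mem_nhds (show (0 : ℝ) < 1 / (2 * (h + 4 * h ^ 2 + 1)) by positivity))
  obtain ⟨J, hJ⟩ := Filter.eventually_atTop.1 h2
  refine ⟨J, fun j hj => ?_⟩
  have h3 := hJ (j + 1) (by omega)
  rw [div_lt_div_iff₀ (by positivity) (by positivity), pow_succ (2 : ℝ) j] at h3
  have h4 : (j + 1) ^ 5 * (h + 4 * h ^ 2 + 1) ≤ 2 ^ j := by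
    have : (((j + 1 : ℕ) : ℝ)) ^ 5 * (h + 4 * h ^ 2 + 1) ≤ 2 ^ j := by linarith
    exact_mod_cast this
  refine le_trans ?_ h4
  obtain ⟨u, hu⟩ : ∃ u, u = j + 1 := ⟨_, rfl⟩
  rw [← hu]
  have hu1 : 1 ≤ u := by omega
  have h5 : u ^ 2 ≤ u ^ 5 := Nat.pow_le_pow_right hu1 (by norm_num)
  calc u ^ 2 * (h * (1 + h * (2 * (u ^ 2 * u + 1))))
      = h * u ^ 2 + 2 * h ^ 2 * u ^ 5 + 2 * h ^ 2 * u ^ 2 := by ring
    _ ≤ h * u ^ 5 + 2 * h ^ 2 * u ^ 5 + 2 * h ^ 2 * u ^ 5 + u ^ 5 := by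
        have := Nat.mul_le_mul_left h h5
        have := Nat.mul_le_mul_left (2 * h ^ 2) h5
        omega
    _ = _ := by ring

end Crest.Agent.R177.SepAux
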