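import Crest.Agent.R177.Defs

/-!
Plotkin-Rao-Smith separators for graphs without a clique minor.
-/

set_option autoImplicit false

namespace Crest.Agent.R177.SepAux

open Finset

variable {P : Type} [DecidableEq P] (H : SimpleGraph P)

/-- connected finite set -/
def Conn (W : Finset P) : Prop := (H.induce (W : Set P)).Connected

variable {H}

omit [DecidableEq P] in
theorem conn_single (v : P) : Conn H {v} := by
  unfold Conn
  rw [Finset.coe_singleton]
  exact SimpleGraph.Connected.of_subsingleton

theorem Conn.union {U W : Finset P} (hU : Conn H U) (hW : Conn H W) {u : P} (h1 : u ∈ U)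
    (h2 : u ∈ W) : Conn H (U ∪ W) := by
  unfold Conn
  rw [Finset.coe_union]
  exact SimpleGraph.induce_union_connected hU.preconnected hW.preconnected ⟨u, h1, h2⟩

theorem Conn.union_adj {U W : Finset P} (hU : Conn H U) (hW : Conn H W) {u w : P} (h1 : u ∈ U)
    (h2 : w ∈ W) (h : H.Adj u w) : Conn H (U ∪ W) := by
  unfold Conn
  rw [Finset.coe_union]
  exact SimpleGraph.connected_induce_union hU.preconnected hW.preconnected h1 h2 h

variable (H) in
open Classical in
/-- balls inside `R` -/
noncomputable def ball (R : Finset P) (v : P) : ℕ → Finset P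
  | 0 => {v}
  | i + 1 => ball R v i ∪ R.filter fun y => ∃ x ∈ ball R v i, H.Adj x y

theorem mem_ball_succ {R : Finset P} {v y : P} {i : ℕ} :
    y ∈ ball H R v (i + 1) ↔ y ∈ ball H R v i ∨ (y ∈ R ∧ ∃ x ∈ ball H R v i, H.Adj x y) := by
  simp [ball]

theorem ball_subset {R : Finset P} {v : P} (hv : v ∈ R) : ∀ i, ball H R v i ⊆ R
  | 0 => by simpa [ball] using hv
  | i + 1 => fun y hy => by
    rcases mem_ball_succ.1 hy with h | h
    · exact ball_subset hv i h
    · exact h.1

theorem ball_subset_succ (R : Finset P) (v : P) (i : ℕ) : ball H R v i ⊆ ball H R v (i + 1) :=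
  fun _ hy => mem_ball_succ.2 (Or.inl hy)

theorem ball_mono (R : Finset P) (v : P) : Monotone (ball H R v) :=
  monotone_nat_of_le_succ (ball_subset_succ R v)

theorem self_mem_ball (R : Finset P) (v : P) (i : ℕ) : v ∈ ball H R v i :=
  ball_mono R v (Nat.zero_le i) (by simp [ball])

theorem ball_path {R : Finset P} {v : P} (hv : v ∈ R) : ∀ i, ∀ w ∈ ball H R v i,
    ∃ W : Finset P, W ⊆ R ∧ v ∈ W ∧ w ∈ W ∧ W.card ≤ i + 1 ∧ Conn H W
  | 0, w, hw => by
    have : w = v := by simpa [ball] using hw
    subst this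
    exact ⟨{w}, by simpa using hv, by simp, by simp, by simp, conn_single w⟩
  | i + 1, w, hw => by
    rcases mem_ball_succ.1 hw with h | ⟨hwR, x, hx, hxw⟩
    · obtain ⟨W, h1, h2, h3, h4, h5⟩ := ball_path hv i w h
      exact ⟨W, h1, h2, h3, by omega, h5⟩
    · obtain ⟨W, h1, h2, h3, h4, h5⟩ := ball_path hv i x hx
      refine ⟨W ∪ {w}, union_subset h1 (by simpa using hwR), mem_union_left _ h2, by simp, ?_,
        h5.union_adj (conn_single w) h3 (by simp) hxw⟩
      have := card_union_le W {w}
      simp only [card_singleton] at this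
      omega

theorem ball_dichotomy (R : Finset P) (v : P) {n j l : ℕ} (hn : 0 < n) (hl : 0 < l)
    (hj : n ≤ 2 ^ j) :
    (∃ i, 2 * (ball H R v i).card ≤ n ∧
      l * (ball H R v (i + 1) \ ball H R v i).card ≤ (ball H R v i).card) ∨
      n < 2 * (ball H R v (l * j)).card := by
  by_contra hcon
  push Not at hcon
  obtain ⟨h1, h2⟩ := hcon
  have hl' : (0 : ℝ) < l := by exact_mod_cast hl
  have key : ∀ i ≤ l * j, (1 + 1 / (l : ℝ)) ^ i ≤ (ball H R v i).card := by
    intro i
    induction i with
    | zero => intro _; simp [ball]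
    | succ i ih =>
      intro hi
      have h3 := ih (by omega)
      have h4 : (ball H R v i).card ≤ (ball H R v (l * j)).card :=
        card_le_card (ball_mono R v (by omega))
      have h5 := h1 i (by omega)
      have h6 := card_sdiff_add_card_eq_card (ball_subset_succ (H := H) R v i)
      have h5' : ((ball H R v i).card : ℝ) <
          l * ((ball H R v (i + 1) \ ball H R v i).card : ℝ) := by exact_mod_cast h5
      have h6' : ((ball H R v (i + 1) \ ball H R v i).card : ℝ) + (ball H R v i).card =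
          (ball H R v (i + 1)).card := by exact_mod_cast h6
      have h7 : ((ball H R v i).card : ℝ) * (1 / l) ≤
          ((ball H R v (i + 1) \ ball H R v i).card : ℝ) := by
        rw [mul_one_div, div_le_iff₀ hl']
        linarith
      rw [pow_succ]
      have h8 : (0 : ℝ) ≤ 1 + 1 / l := by positivity
      nlinarith [mul_le_mul_of_nonneg_right h3 h8]
  have h3 := key (l * j) le_rfl
  have h4 : (2 : ℝ) ≤ (1 + 1 / (l : ℝ)) ^ l := by
    have := one_add_mul_le_pow (a := 1 / (l : ℝ)) (by
      have : (0 : ℝ) ≤ 1 / l := by positivity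
      linarith) l
    rw [mul_one_div_cancel hl'.ne'] at this
    linarith
  rw [pow_mul] at h3
  have h5 : (2 : ℝ) ^ j ≤ (ball H R v (l * j)).card :=
    (pow_le_pow_left₀ (by norm_num) h4 j).trans h3
  have h6 : 2 ^ j ≤ (ball H R v (l * j)).card := by exact_mod_cast h5
  omega

theorem exists_branch {R : Finset P} {v : P} (hv : v ∈ R) {D : ℕ}
    (hD : ∀ w ∈ R, ∃ W : Finset P, W ⊆ R ∧ v ∈ W ∧ w ∈ W ∧ W.card ≤ D ∧ Conn H W)
    (B : Finset (Finset P)) (hB : ∀ b ∈ B, ∃ x ∈ b, ∃ w ∈ R, H.Adj x w) :
    ∃ W : Finset P, W ⊆ R ∧ v ∈ W ∧ W.card ≤ 1 + B.card * D ∧ Conn H W ∧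
      ∀ b ∈ B, ∃ x ∈ b, ∃ w ∈ W, H.Adj x w := by
  induction B using Finset.induction_on with
  | empty => exact ⟨{v}, by simpa using hv, by simp, by simp, conn_single v, by simp⟩
  | insert b B hb ih =>
    obtain ⟨W, h1, h2, h3, h4, h5⟩ := ih fun b' hb' => hB b' (mem_insert_of_mem hb')
    obtain ⟨x, hx, w, hw, hxw⟩ := hB b (mem_insert_self _ _)
    obtain ⟨W', k1, k2, k3, k4, k5⟩ := hD w hw
    refine ⟨W ∪ W', union_subset h1 k1, mem_union_left _ h2, ?_, h4.union k5 h2 k2, ?_⟩
    · have := card_union_le W W'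
      rw [card_insert_of_notMem hb, add_mul]
      omega
    · intro b' hb'
      rcases mem_insert.1 hb' with rfl | hb'
      · exact ⟨x, hx, w, mem_union_right _ k3, hxw⟩
      · obtain ⟨x', hx', w', hw', h⟩ := h5 b' hb'
        exact ⟨x', hx', w', mem_union_left _ hw', h⟩

omit [DecidableEq P] in
theorem card_lt_of_no_minor {h : ℕ} (hH : ¬ HasCliqueMinor H h) (B : Finset (Finset P))
    (h1 : ∀ b ∈ B, Conn H b)
    (h2 : ∀ b ∈ B, ∀ b' ∈ B, b ≠ b' → Disjoint b b' ∧ ∃ x ∈ b, ∃ y ∈ b', H.Adj x y) :
    B.card < h := by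
  by_contra hcon
  apply hH
  set e : Fin h → B := fun i => B.equivFin.symm (Fin.castLE (not_lt.1 hcon) i) with he
  have hinj : ∀ i j, i ≠ j → (e i : Finset P) ≠ e j := by
    intro i j hij hh
    apply hij
    have := B.equivFin.symm.injective (Subtype.ext hh)
    exact Fin.castLE_injective _ this
  refine ⟨fun i => ((e i : Finset P) : Set P), fun i => h1 _ (e i).2, fun i j hij => ?_,
    fun i j hij => ?_⟩
  · exact Finset.disjoint_coe.2 (h2 _ (e i).2 _ (e j).2 (hinj i j hij)).1
  · exact (h2 _ (e i).2 _ (e j).2 (hinj i j hij)).2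

variable (H) in
/-- the invariant of the separator algorithm -/
structure Inv (A : Finset P) (l T : ℕ) (R S : Finset P) (B : Finset (Finset P)) : Prop where
  sub : R ⊆ A
  card : l * S.card + R.card ≤ A.card
  br : ∀ b ∈ B, Conn H b ∧ b.card ≤ T ∧ Disjoint b R
  adj : ∀ b ∈ B, ∀ b' ∈ B, b ≠ b' → Disjoint b b' ∧ ∃ x ∈ b, ∃ y ∈ b', H.Adj x y
  nb : ∀ x ∈ R, ∀ y ∈ A, y ∉ R → H.Adj x y → y ∈ S ∨ ∃ b ∈ B, y ∈ b

variable (H) in
/-- a balanced separator -/
def Goal (A : Finset P) (l M : ℕ) : Prop :=
  ∃ (X : Finset P) (c : P → ℕ), l * X.card ≤ A.card + l * M ∧ (∀ x, c x < 3) ∧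
    (∀ x ∈ A, ∀ y ∈ A, x ∉ X → y ∉ X → H.Adj x y → c x = c y) ∧
    ∀ i, 2 * (A.filter fun x => x ∉ X ∧ c x = i).card ≤ A.card

theorem finish {h : ℕ} (hH : ¬ HasCliqueMinor H h) {A : Finset P} {l T : ℕ} {R S R' S' : Finset P}
    {B B' : Finset (Finset P)} (I : Inv H A l T R S B) (I' : Inv H A l T R' S' B') (hS : S ⊆ S')
    (hB : B ⊆ B') (h1 : A.card < 2 * R.card) (h2 : 2 * R'.card ≤ A.card)
    (h3 : ∃ U : Finset P, 2 * U.card ≤ A.card ∧
      ∀ x ∈ R, x ∉ R' → x ∈ U ∨ x ∈ S' ∨ ∃ b ∈ B', x ∈ b) : Goal H A l (h * T) := by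
  obtain ⟨U, hU, hU'⟩ := h3
  have hmem : ∀ x, x ∈ S' ∪ B'.biUnion id ↔ x ∈ S' ∨ ∃ b ∈ B', x ∈ b := by simp
  refine ⟨S' ∪ B'.biUnion id, fun x => if x ∈ R then if x ∈ R' then 2 else 1 else 0, ?_, ?_, ?_, ?_⟩
  · have k1 := card_union_le S' (B'.biUnion id)
    have k2 : (B'.biUnion id).card ≤ B'.card * T :=
      card_biUnion_le_card_mul _ _ _ fun b hb => (I'.br b hb).2.1
    have k3 := card_lt_of_no_minor hH B' (fun b hb => (I'.br b hb).1) I'.adj
    have k4 : B'.card * T ≤ h * T := Nat.mul_le_mul_right _ k3.le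
    have k5 := I'.card
    have k6 : l * (S' ∪ B'.biUnion id).card ≤ l * (S'.card + h * T) :=
      Nat.mul_le_mul_left _ (by omega)
    rw [mul_add] at k6
    omega
  · intro x
    beta_reduce
    split_ifs <;> norm_num
  · intro x hx y hy hxX hyX hxy
    rw [hmem] at hxX hyX
    have e1 : x ∈ R ↔ y ∈ R := by
      constructor
      · intro hxR
        by_contra hyR
        rcases I.nb x hxR y hy hyR hxy with k | ⟨b, hb, k⟩
        · exact hyX (Or.inl (hS k))
        · exact hyX (Or.inr ⟨b, hB hb, k⟩)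
      · intro hyR
        by_contra hxR
        rcases I.nb y hyR x hx hxR hxy.symm with k | ⟨b, hb, k⟩
        · exact hxX (Or.inl (hS k))
        · exact hxX (Or.inr ⟨b, hB hb, k⟩)
    have e2 : x ∈ R' ↔ y ∈ R' :=
      ⟨fun hxR => by_contra fun hyR => hyX (I'.nb x hxR y hy hyR hxy),
        fun hyR => by_contra fun hxR => hxX (I'.nb y hyR x hx hxR hxy.symm)⟩
    simp only [e1, e2]
  · intro i
    beta_reduce
    by_cases h0 : i = 0
    · have : (A.filter fun x => x ∉ S' ∪ B'.biUnion id ∧
          (if x ∈ R then if x ∈ R' then 2 else 1 else 0) = i) ⊆ A \ R := by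
        intro x hx
        rw [mem_filter] at hx
        refine mem_sdiff.2 ⟨hx.1, fun hxR => ?_⟩
        have := hx.2.2
        rw [if_pos hxR] at this
        split_ifs at this <;> omega
      have k1 := card_le_card this
      have k2 := card_sdiff_add_card_eq_card I.sub
      omega
    by_cases h1' : i = 2
    · have : (A.filter fun x => x ∉ S' ∪ B'.biUnion id ∧
          (if x ∈ R then if x ∈ R' then 2 else 1 else 0) = i) ⊆ R' := by
        intro x hx
        rw [mem_filter] at hx
        have := hx.2.2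
        split_ifs at this with k1 k2
        · exact k2
        · omega
        · omega
      have k1 := card_le_card this
      omega
    · have : (A.filter fun x => x ∉ S' ∪ B'.biUnion id ∧
          (if x ∈ R then if x ∈ R' then 2 else 1 else 0) = i) ⊆ U := by
        intro x hx
        rw [mem_filter, hmem] at hx
        have := hx.2.2
        split_ifs at this with k1 k2
        · omega
        · exact (hU' x k1 k2).resolve_right hx.2.1
        · omega
      have k1 := card_le_card this
      omega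

theorem loop {h : ℕ} (hH : ¬ HasCliqueMinor H h) {A : Finset P} {l j : ℕ} (hl : 0 < l)
    (hj : A.card ≤ 2 ^ j) : ∀ (μ : ℕ) (R S : Finset P) (B : Finset (Finset P)),
    2 * R.card + B.card ≤ μ → Inv H A l (1 + h * (2 * (l * j + 1))) R S B →
    A.card < 2 * R.card → Goal H A l (h * (1 + h * (2 * (l * j + 1)))) := by
  intro μ
  induction μ with
  | zero => intro R S B h1 _ h2; omega
  | succ μ ih =>
    intro R S B hμ I hR
    have hA0 : 0 < A.card := by
      have := card_le_card I.sub
      omega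
    by_cases hdrop : ∃ b ∈ B, ∀ x ∈ b, ∀ w ∈ R, ¬ H.Adj x w
    · obtain ⟨b, hb, hb'⟩ := hdrop
      refine ih R S (B.erase b) ?_ ⟨I.sub, I.card, fun b' h' => I.br b' (mem_of_mem_erase h'),
        fun b₁ h₁ b₂ h₂ => I.adj b₁ (mem_of_mem_erase h₁) b₂ (mem_of_mem_erase h₂), ?_⟩ hR
      · have := card_erase_add_one hb
        omega
      · intro x hx y hy hyR hxy
        rcases I.nb x hx y hy hyR hxy with k | ⟨b', hb'', k⟩
        · exact Or.inl k
        · refine Or.inr ⟨b', mem_erase.2 ⟨?_, hb''⟩, k⟩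
          rintro rfl
          exact hb' y k x hx hxy.symm
    push Not at hdrop
    by_cases hcut : ∃ v ∈ R, ∃ i, 2 * (ball H R v i).card ≤ A.card ∧
        l * (ball H R v (i + 1) \ ball H R v i).card ≤ (ball H R v i).card
    · obtain ⟨v, hv, i, hi1, hi2⟩ := hcut
      have k1 := card_sdiff_add_card_eq_card (ball_subset_succ (H := H) R v i)
      have k2 := card_sdiff_add_card_eq_card (ball_subset (H := H) hv (i + 1))
      have k3 : 0 < (ball H R v i).card := card_pos.2 ⟨v, self_mem_ball R v i⟩
      have I' : Inv H A l (1 + h * (2 * (l * j + 1))) (R \ ball H R v (i + 1))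
          (S ∪ (ball H R v (i + 1) \ ball H R v i)) B := by
        refine ⟨sdiff_subset.trans I.sub, ?_, fun b hb => ⟨(I.br b hb).1, (I.br b hb).2.1,
          (I.br b hb).2.2.mono_right sdiff_subset⟩, I.adj, ?_⟩
        · have k4 := Nat.mul_le_mul_left l (card_union_le S (ball H R v (i + 1) \ ball H R v i))
          have k5 := I.card
          rw [mul_add] at k4
          omega
        · intro x hx y hy hyR hxy
          rw [mem_sdiff] at hx
          by_cases hyR' : y ∈ R
          · have hy1 : y ∈ ball H R v (i + 1) := by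
              by_contra hh
              exact hyR (mem_sdiff.2 ⟨hyR', hh⟩)
            refine Or.inl (mem_union_right _ (mem_sdiff.2 ⟨hy1, fun hy0 => hx.2 ?_⟩))
            exact mem_ball_succ.2 (Or.inr ⟨hx.1, y, hy0, hxy.symm⟩)
          · rcases I.nb x hx.1 y hy hyR' hxy with k | k
            · exact Or.inl (mem_union_left _ k)
            · exact Or.inr k
      by_cases hbig : A.card < 2 * (R \ ball H R v (i + 1)).card
      · exact ih _ _ _ (by omega) I' hbig
      · refine finish hH I I' subset_union_left Subset.rfl hR (not_lt.1 hbig)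
          ⟨ball H R v i, hi1, fun x hx hx' => ?_⟩
        have hx1 : x ∈ ball H R v (i + 1) := by
          by_contra hh
          exact hx' (mem_sdiff.2 ⟨hx, hh⟩)
        by_cases hx0 : x ∈ ball H R v i
        · exact Or.inl hx0
        · exact Or.inr (Or.inl (mem_union_right _ (mem_sdiff.2 ⟨hx1, hx0⟩)))
    · have hlarge : ∀ v ∈ R, A.card < 2 * (ball H R v (l * j)).card := fun v hv =>
        (ball_dichotomy R v hA0 hl hj).resolve_left fun k => hcut ⟨v, hv, k⟩
      obtain ⟨v, hv⟩ : R.Nonempty := card_pos.1 (by omega)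
      have hD : ∀ w ∈ R, ∃ W : Finset P, W ⊆ R ∧ v ∈ W ∧ w ∈ W ∧ W.card ≤ 2 * (l * j + 1) ∧
          Conn H W := by
        intro w hw
        have : ¬ Disjoint (ball H R v (l * j)) (ball H R w (l * j)) := by
          intro hd
          have k1 := card_union_of_disjoint hd
          have k2 := card_le_card ((union_subset (ball_subset (H := H) hv (l * j))
            (ball_subset (H := H) hw (l * j))).trans I.sub)
          have k3 := hlarge v hv
          have k4 := hlarge w hw
          omega
        obtain ⟨u, hu1, hu2⟩ := not_disjoint_iff.1 this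
        obtain ⟨W₁, a1, a2, a3, a4, a5⟩ := ball_path hv _ u hu1
        obtain ⟨W₂, b1, b2, b3, b4, b5⟩ := ball_path hw _ u hu2
        refine ⟨W₁ ∪ W₂, union_subset a1 b1, mem_union_left _ a2, mem_union_right _ b2, ?_,
          a5.union b5 a3 b3⟩
        have := card_union_le W₁ W₂
        omega
      obtain ⟨W, h1, h2, h3, h4, h5⟩ := exists_branch hv hD B hdrop
      have k0 := card_lt_of_no_minor hH B (fun b hb => (I.br b hb).1) I.adj
      have k1 := card_sdiff_add_card_eq_card h1
      have k2 : 0 < W.card := card_pos.2 ⟨v, h2⟩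
      have k3 := card_insert_le W B
      have I' : Inv H A l (1 + h * (2 * (l * j + 1))) (R \ W) S (insert W B) := by
        refine ⟨sdiff_subset.trans I.sub, ?_, ?_, ?_, ?_⟩
        · have := I.card
          omega
        · intro b hb
          rcases mem_insert.1 hb with rfl | hb
          · refine ⟨h4, h3.trans ?_, disjoint_sdiff⟩
            exact Nat.add_le_add_left (Nat.mul_le_mul_right _ k0.le) _
          · exact ⟨(I.br b hb).1, (I.br b hb).2.1, (I.br b hb).2.2.mono_right sdiff_subset⟩
        · intro b hb b' hb' hne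
          rcases mem_insert.1 hb with rfl | gb
          · rcases mem_insert.1 hb' with rfl | gb'
            · exact absurd rfl hne
            · obtain ⟨x, hx, w, hw, hxw⟩ := h5 b' gb'
              exact ⟨((I.br b' gb').2.2.mono_right h1).symm, w, hw, x, hx, hxw.symm⟩
          · rcases mem_insert.1 hb' with rfl | gb'
            · exact ⟨(I.br b gb).2.2.mono_right h1, h5 b gb⟩
            · exact I.adj b gb b' gb' hne
        · intro x hx y hy hyR hxy
          by_cases hyR' : y ∈ R
          · refine Or.inr ⟨W, mem_insert_self _ _, ?_⟩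
            by_contra hh
            exact hyR (mem_sdiff.2 ⟨hyR', hh⟩)
          · rcases I.nb x (mem_sdiff.1 hx).1 y hy hyR' hxy with k | ⟨b, hb, k⟩
            · exact Or.inl k
            · exact Or.inr ⟨b, mem_insert_of_mem hb, k⟩
      by_cases hbig : A.card < 2 * (R \ W).card
      · exact ih _ _ _ (by omega) I' hbig
      · refine finish hH I I' Subset.rfl (subset_insert _ _) hR (not_lt.1 hbig)
          ⟨∅, by simp, fun x hx hx' => Or.inr (Or.inr ⟨W, mem_insert_self _ _, ?_⟩)⟩
        by_contra hh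
        exact hx' (mem_sdiff.2 ⟨hx, hh⟩)

theorem separator {h : ℕ} (hH : ¬ HasCliqueMinor H h) (A : Finset P) (hA : 0 < A.card) {l j : ℕ}
    (hl : 0 < l) (hj : A.card ≤ 2 ^ j) : Goal H A l (h * (1 + h * (2 * (l * j + 1)))) :=
  loop hH hl hj _ A ∅ ∅ le_rfl ⟨Subset.rfl, by simp, by simp, by simp,
    fun _ _ _ hy hy' => absurd hy hy'⟩ (by omega)

end Crest.Agent.R177.SepAux
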